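/-
S0010 (row 9), abstract assembly (WP-AS): basic definitions and field-theoretic lemmas.
Pure Mathlib; no KOne / tensor products / derivations.

* `pPow L p`   : the subfield `L^p` of `p`-th powers.
* `pAdj p x`   : the subfield `L^p(x)`.
* `PRel p a b` : `a = e * b` with `0 ≠ e ∈ L^p`  (for units: `[a] = [b]` in `Lˣ/(Lˣ)^p`).
* `PIndep p x y` : `x ∉ L^p` and `y ∉ L^p(x)`.
* `LineData p t`, `NormLine p s` : the abstract hypotheses of the assembly.
-/
import Mathlib

set_option autoImplicit false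

namespace Crest.Agent.Helper19.S0010

open Polynomial

section Defs

variable (L : Type*) [Field L] (p : ℕ) [Fact p.Prime] [CharP L p]

/-- The subfield `L^p` of `p`-th powers. -/
def pPow : Subfield L := (frobenius L p).fieldRange

variable {L}

theorem mem_pPow {a : L} : a ∈ pPow L p ↔ ∃ b : L, b ^ p = a := by
  simp [pPow, RingHom.mem_fieldRange, frobenius_def]

theorem pow_mem_pPow (b : L) : b ^ p ∈ pPow L p := (mem_pPow p).2 ⟨b, rfl⟩

/-- The subfield `L^p(x)`. -/
def pAdj (x : L) : Subfield L := Subfield.closure ((pPow L p : Set L) ∪ {x})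

theorem pPow_le_pAdj (x : L) : pPow L p ≤ pAdj p x := fun _ ha =>
  Subfield.subset_closure (Or.inl ha)

theorem self_mem_pAdj (x : L) : x ∈ pAdj p x :=
  Subfield.subset_closure (Or.inr rfl)

theorem pAdj_le {x : L} {S : Subfield L} (hS : pPow L p ≤ S) (hx : x ∈ S) : pAdj p x ≤ S :=
  Subfield.closure_le.2 (Set.union_subset hS (Set.singleton_subset_iff.2 hx))

theorem pAdj_mono {x z : L} (hz : z ∈ pAdj p x) : pAdj p z ≤ pAdj p x :=
  pAdj_le p (pPow_le_pAdj p x) hz

theorem pAdj_eq_pPow_of_mem {x : L} (hx : x ∈ pPow L p) : pAdj p x = pPow L p :=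
  le_antisymm (pAdj_le p le_rfl hx) (pPow_le_pAdj p x)

/-- `a = e * b` with `e` a nonzero `p`-th power. -/
def PRel (a b : L) : Prop := ∃ e ∈ pPow L p, e ≠ 0 ∧ a = e * b

/-- `x, y` are `p`-independent: `x ∉ L^p`, `y ∉ L^p(x)`. -/
def PIndep (x y : L) : Prop := x ∉ pPow L p ∧ y ∉ pAdj p x

end Defs

section Exchange

variable {L : Type*} [Field L] (p : ℕ) [Fact p.Prime] [CharP L p]

theorem mem_adjoin_iff_pAdj {x w : L} :
    w ∈ IntermediateField.adjoin (pPow L p) {x} ↔ w ∈ pAdj p x := by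
  have h : Set.range (algebraMap (pPow L p) L) = (pPow L p : Set L) := by
    ext y
    constructor
    · rintro ⟨b, rfl⟩; exact b.2
    · intro hy; exact ⟨⟨y, hy⟩, rfl⟩
  rw [← IntermediateField.mem_toSubfield, IntermediateField.adjoin_toSubfield, h]
  rfl

theorem minpoly_natDegree_of_notMem {x : L} (hx : x ∉ pPow L p) :
    (minpoly (pPow L p) x).natDegree = p := by
  have hp := (Fact.out : p.Prime)
  set a : pPow L p := ⟨x ^ p, pow_mem_pPow p x⟩ with ha
  have hirr : Irreducible (X ^ p - C a : (pPow L p)[X]) := by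
    apply X_pow_sub_C_irreducible_of_prime hp
    intro b hb
    apply hx
    have h1 : (b : L) ^ p = x ^ p := by
      have := congrArg Subtype.val hb
      simpa [ha] using this
    have hbx : (b : L) = x := frobenius_inj L p h1
    rw [← hbx]; exact b.2
  have hroot : aeval x (X ^ p - C a : (pPow L p)[X]) = 0 := by
    have h0 : algebraMap (pPow L p) L a = x ^ p := rfl
    simp [h0]
  have hmonic : (X ^ p - C a : (pPow L p)[X]).Monic := monic_X_pow_sub_C a hp.ne_zero
  rw [← minpoly.eq_of_irreducible_of_monic hirr hroot hmonic]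
  exact natDegree_X_pow_sub_C

theorem isIntegral_pPow (x : L) : IsIntegral (pPow L p) x := by
  have hp := (Fact.out : p.Prime)
  refine ⟨X ^ p - C (⟨x ^ p, pow_mem_pPow p x⟩ : pPow L p), monic_X_pow_sub_C _ hp.ne_zero, ?_⟩
  have h0 : algebraMap (pPow L p) L (⟨x ^ p, pow_mem_pPow p x⟩ : pPow L p) = x ^ p := rfl
  simp [h0]

/-- Exchange lemma: if `z ∈ L^p(x) \ L^p` then `x ∈ L^p(z)`. -/
theorem exchange {x z : L} (hz : z ∈ pAdj p x) (hz' : z ∉ pPow L p) : x ∈ pAdj p z := by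
  have hx : x ∉ pPow L p := fun h => hz' (by rwa [pAdj_eq_pPow_of_mem p h] at hz)
  have hintx := isIntegral_pPow p x
  have hintz := isIntegral_pPow p z
  have key : IntermediateField.adjoin (pPow L p) {z} = IntermediateField.adjoin (pPow L p) {x} := by
    have : FiniteDimensional (pPow L p) (IntermediateField.adjoin (pPow L p) {x}) :=
      IntermediateField.adjoin.finiteDimensional hintx
    apply IntermediateField.eq_of_le_of_finrank_eq
    · rw [IntermediateField.adjoin_simple_le_iff]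
      exact (mem_adjoin_iff_pAdj p).2 hz
    · rw [IntermediateField.adjoin.finrank hintz, IntermediateField.adjoin.finrank hintx,
        minpoly_natDegree_of_notMem p hz', minpoly_natDegree_of_notMem p hx]
  have : x ∈ IntermediateField.adjoin (pPow L p) {z} :=
    key ▸ IntermediateField.mem_adjoin_simple_self (pPow L p) x
  exact (mem_adjoin_iff_pAdj p).1 this

theorem pAdj_eq_of_mem {x z : L} (hz : z ∈ pAdj p x) (hz' : z ∉ pPow L p) :
    pAdj p z = pAdj p x :=
  le_antisymm (pAdj_mono p hz) (pAdj_mono p (exchange p hz hz'))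

end Exchange

section PRelLemmas

variable {L : Type*} [Field L] {p : ℕ} [Fact p.Prime] [CharP L p]

theorem PRel.refl (a : L) : PRel p a a :=
  ⟨1, (pPow L p).one_mem, one_ne_zero, (one_mul a).symm⟩

theorem PRel.of_eq {a b : L} (h : a = b) : PRel p a b := h ▸ PRel.refl a

theorem PRel.symm {a b : L} (h : PRel p a b) : PRel p b a := by
  obtain ⟨e, he, he0, rfl⟩ := h
  exact ⟨e⁻¹, (pPow L p).inv_mem he, inv_ne_zero he0, by field_simp⟩

theorem PRel.trans {a b c : L} (h1 : PRel p a b) (h2 : PRel p b c) : PRel p a c := by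
  obtain ⟨e, he, he0, rfl⟩ := h1
  obtain ⟨e', he', he0', rfl⟩ := h2
  exact ⟨e * e', (pPow L p).mul_mem he he', mul_ne_zero he0 he0', by ring⟩

theorem PRel.mul {a b c d : L} (h1 : PRel p a b) (h2 : PRel p c d) : PRel p (a * c) (b * d) := by
  obtain ⟨e, he, he0, rfl⟩ := h1
  obtain ⟨e', he', he0', rfl⟩ := h2
  exact ⟨e * e', (pPow L p).mul_mem he he', mul_ne_zero he0 he0', by ring⟩

theorem PRel.inv {a b : L} (h : PRel p a b) : PRel p a⁻¹ b⁻¹ := by
  obtain ⟨e, he, he0, rfl⟩ := h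
  exact ⟨e⁻¹, (pPow L p).inv_mem he, inv_ne_zero he0, by rw [mul_inv]⟩

theorem PRel.div {a b c d : L} (h1 : PRel p a b) (h2 : PRel p c d) : PRel p (a / c) (b / d) := by
  rw [div_eq_mul_inv, div_eq_mul_inv]; exact h1.mul h2.inv

theorem PRel.pow {a b : L} (h : PRel p a b) (n : ℕ) : PRel p (a ^ n) (b ^ n) := by
  obtain ⟨e, he, he0, rfl⟩ := h
  exact ⟨e ^ n, (pPow L p).pow_mem he n, pow_ne_zero n he0, by rw [mul_pow]⟩

theorem PRel.mul_left {a b : L} (h : PRel p a b) (c : L) : PRel p (c * a) (c * b) :=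
  (PRel.refl c).mul h

theorem PRel.mul_right {a b : L} (h : PRel p a b) (c : L) : PRel p (a * c) (b * c) :=
  h.mul (PRel.refl c)

theorem PRel.neg {a b : L} (h : PRel p a b) : PRel p (-a) (-b) := by
  obtain ⟨e, he, he0, rfl⟩ := h
  exact ⟨e, he, he0, by ring⟩

theorem PRel.eq_zero_iff {a b : L} (h : PRel p a b) : a = 0 ↔ b = 0 := by
  obtain ⟨e, he, he0, rfl⟩ := h
  simp [he0]

theorem PRel.ne_zero_iff {a b : L} (h : PRel p a b) : a ≠ 0 ↔ b ≠ 0 := not_congr h.eq_zero_iff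

/-- `e * b ~ b` for `0 ≠ e ∈ L^p`. -/
theorem prel_mul_self {e : L} (he : e ∈ pPow L p) (he0 : e ≠ 0) (b : L) : PRel p (e * b) b :=
  ⟨e, he, he0, rfl⟩

theorem prel_self_mul {e : L} (he : e ∈ pPow L p) (he0 : e ≠ 0) (b : L) : PRel p b (e * b) :=
  (prel_mul_self he he0 b).symm

/-- Two nonzero elements of `L^p` are related. -/
theorem prel_of_mem {a b : L} (ha : a ∈ pPow L p) (ha0 : a ≠ 0) (hb : b ∈ pPow L p) (hb0 : b ≠ 0) :
    PRel p a b :=
  ⟨a / b, (pPow L p).div_mem ha hb, div_ne_zero ha0 hb0, by field_simp⟩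

theorem PRel.mem_subfield_iff {a b : L} (h : PRel p a b) {S : Subfield L} (hS : pPow L p ≤ S) :
    a ∈ S ↔ b ∈ S := by
  obtain ⟨e, he, he0, rfl⟩ := h
  constructor
  · intro h'
    have := S.mul_mem (S.inv_mem (hS he)) h'
    rwa [inv_mul_cancel_left₀ he0] at this
  · intro h'; exact S.mul_mem (hS he) h'

theorem PRel.mem_pPow_iff {a b : L} (h : PRel p a b) : a ∈ pPow L p ↔ b ∈ pPow L p :=
  h.mem_subfield_iff le_rfl

theorem PRel.mem_pAdj_iff {a b : L} (h : PRel p a b) (x : L) : a ∈ pAdj p x ↔ b ∈ pAdj p x :=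
  h.mem_subfield_iff (pPow_le_pAdj p x)

theorem PRel.pAdj_eq {a b : L} (h : PRel p a b) : pAdj p a = pAdj p b :=
  le_antisymm (pAdj_mono p ((h.mem_pAdj_iff b).2 (self_mem_pAdj p b)))
    (pAdj_mono p ((h.symm.mem_pAdj_iff a).2 (self_mem_pAdj p a)))

/-- the `p`-th power of a nonzero element is related to `1`. -/
theorem prel_pow_p_one {a : L} (ha : a ≠ 0) : PRel p (a ^ p) 1 :=
  ⟨a ^ p, pow_mem_pPow p a, pow_ne_zero p ha, (mul_one _).symm⟩

/-- If `m` is prime to `p` and `x ^ m ∈ L^p` then `x ∈ L^p`. -/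
theorem mem_pPow_of_pow_mem {m : ℕ} (hm : Nat.Coprime m p) {x : L} (h : x ^ m ∈ pPow L p) :
    x ∈ pPow L p := by
  rcases eq_or_ne x 0 with rfl | hx
  · exact (pPow L p).zero_mem
  have hb : (m : ℤ) * Nat.gcdA m p + (p : ℤ) * Nat.gcdB m p = 1 := by
    have := Nat.gcd_eq_gcd_ab m p
    rw [hm] at this
    exact_mod_cast this.symm
  have hx1 : x = (x ^ m) ^ (Nat.gcdA m p) * (x ^ (Nat.gcdB m p)) ^ p := by
    rw [← zpow_natCast x m, ← zpow_mul, ← zpow_natCast (x ^ (Nat.gcdB m p)) p, ← zpow_mul,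
      ← zpow_add₀ hx, mul_comm (Nat.gcdB m p) (p : ℤ), hb, zpow_one]
  rw [hx1]
  exact (pPow L p).mul_mem ((pPow L p).zpow_mem h _) (pow_mem_pPow p _)

/-- If `m` is prime to `p`, `b ≠ 0` and `a ^ m ~ b ^ m` then `a ~ b`. -/
theorem PRel.of_pow {m : ℕ} (hm : Nat.Coprime m p) {a b : L} (hb : b ≠ 0)
    (h : PRel p (a ^ m) (b ^ m)) : PRel p a b := by
  obtain ⟨e, he, he0, hab⟩ := h
  have ha : a ≠ 0 := by
    rintro rfl
    rcases Nat.eq_zero_or_pos m with rfl | hm0
    · simp at hm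
      exact (Fact.out : p.Prime).one_lt.ne' hm
    · rw [zero_pow hm0.ne'] at hab
      exact mul_ne_zero he0 (pow_ne_zero m hb) hab.symm
  have h1 : (a / b) ^ m ∈ pPow L p := by
    rw [div_pow, hab, mul_div_assoc, div_self (pow_ne_zero m hb), mul_one]; exact he
  have h2 := mem_pPow_of_pow_mem hm h1
  exact ⟨a / b, h2, div_ne_zero ha hb, by field_simp⟩

/-- `y ^ n ~ y` when `n ≡ 1 [MOD p]` and `y ≠ 0`. -/
theorem prel_pow_of_modEq_one {n : ℕ} (hn : n ≡ 1 [MOD p]) {y : L} (hy : y ≠ 0) :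
    PRel p (y ^ n) y := by
  have h1 : 1 ≤ n := by
    rcases Nat.eq_zero_or_pos n with rfl | h
    · exfalso
      have := (Nat.modEq_zero_iff_dvd.1 hn.symm)
      exact (Fact.out : p.Prime).one_lt.ne' (Nat.dvd_one.1 this)
    · exact h
  obtain ⟨j, hj⟩ := (Nat.modEq_iff_dvd' h1).1 hn.symm
  have hn' : n = 1 + p * j := by omega
  refine ⟨(y ^ j) ^ p, pow_mem_pPow p _, pow_ne_zero _ (pow_ne_zero _ hy), ?_⟩
  rw [hn', pow_add, pow_one, pow_mul, ← pow_mul, ← pow_mul, mul_comm j p, mul_comm]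

end PRelLemmas

section Lin

variable {L : Type*} [Field L] {p : ℕ} [Fact p.Prime] [CharP L p]

/-- `1, x` are independent over a subfield `S` not containing `x`. -/
theorem lin2 {S : Subfield L} {x : L} (hx : x ∉ S) {a b : L} (ha : a ∈ S) (hb : b ∈ S)
    (h : a + b * x = 0) : a = 0 ∧ b = 0 := by
  have hb0 : b = 0 := by
    by_contra hb0
    apply hx
    have : x = -a / b := by field_simp; linear_combination h
    rw [this]; exact S.div_mem (S.neg_mem ha) hb
  subst hb0
  simpa using h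

theorem lin2_eq {S : Subfield L} {x : L} (hx : x ∉ S) {a b a' b' : L} (ha : a ∈ S) (hb : b ∈ S)
    (ha' : a' ∈ S) (hb' : b' ∈ S) (h : a + b * x = a' + b' * x) : a = a' ∧ b = b' := by
  have := lin2 hx (S.sub_mem ha ha') (S.sub_mem hb hb') (by linear_combination h)
  exact ⟨sub_eq_zero.1 this.1, sub_eq_zero.1 this.2⟩

/-- `1, x, y` are independent over `L^p` for a `p`-independent pair. -/
theorem lin3 {x y : L} (hxy : PIndep p x y) {a b c : L} (ha : a ∈ pPow L p) (hb : b ∈ pPow L p)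
    (hc : c ∈ pPow L p) (h : a + b * x + c * y = 0) : a = 0 ∧ b = 0 ∧ c = 0 := by
  have h1 := lin2 hxy.2 (a := a + b * x) (b := c)
    ((pAdj p x).add_mem (pPow_le_pAdj p x ha)
      ((pAdj p x).mul_mem (pPow_le_pAdj p x hb) (self_mem_pAdj p x)))
    (pPow_le_pAdj p x hc) h
  have h2 := lin2 hxy.1 ha hb h1.1
  exact ⟨h2.1, h2.2, h1.2⟩

theorem lin3_eq {x y : L} (hxy : PIndep p x y) {a b c a' b' c' : L} (ha : a ∈ pPow L p)
    (hb : b ∈ pPow L p) (hc : c ∈ pPow L p) (ha' : a' ∈ pPow L p) (hb' : b' ∈ pPow L p)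
    (hc' : c' ∈ pPow L p) (h : a + b * x + c * y = a' + b' * x + c' * y) :
    a = a' ∧ b = b' ∧ c = c' := by
  have := lin3 hxy ((pPow L p).sub_mem ha ha') ((pPow L p).sub_mem hb hb')
    ((pPow L p).sub_mem hc hc') (by linear_combination h)
  exact ⟨sub_eq_zero.1 this.1, sub_eq_zero.1 this.2.1, sub_eq_zero.1 this.2.2⟩

end Lin

section PIndepLemmas

variable {L : Type*} [Field L] {p : ℕ} [Fact p.Prime] [CharP L p]

theorem PIndep.notMem_right {x y : L} (h : PIndep p x y) : y ∉ pPow L p :=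
  fun hy => h.2 (pPow_le_pAdj p x hy)

theorem PIndep.symm {x y : L} (h : PIndep p x y) : PIndep p y x :=
  ⟨h.notMem_right, fun hx => h.2 (exchange p hx h.1)⟩

theorem PIndep.ne_zero_left {x y : L} (h : PIndep p x y) : x ≠ 0 := by
  rintro rfl; exact h.1 (pPow L p).zero_mem

theorem PIndep.ne_zero_right {x y : L} (h : PIndep p x y) : y ≠ 0 := h.symm.ne_zero_left

/-- Replace `x` by any `x' ∈ L^p(x) \ L^p`. -/
theorem PIndep.of_mem_left {x x' y : L} (h : PIndep p x y) (hx' : x' ∈ pAdj p x)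
    (hx'' : x' ∉ pPow L p) : PIndep p x' y :=
  ⟨hx'', by rw [pAdj_eq_of_mem p hx' hx'']; exact h.2⟩

theorem PIndep.congr_left {x x' y : L} (h : PIndep p x y) (hx : PRel p x' x) : PIndep p x' y :=
  ⟨fun h' => h.1 (hx.mem_pPow_iff.1 h'), by rw [hx.pAdj_eq]; exact h.2⟩

theorem PIndep.congr_right {x y y' : L} (h : PIndep p x y) (hy : PRel p y' y) : PIndep p x y' :=
  ⟨h.1, fun h' => h.2 ((hy.mem_pAdj_iff x).1 h')⟩

theorem PIndep.congr {x x' y y' : L} (h : PIndep p x y) (hx : PRel p x' x) (hy : PRel p y' y) :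
    PIndep p x' y' := (h.congr_left hx).congr_right hy

/-- Replace `y` by `y + w`, `w ∈ L^p(x)`. -/
theorem PIndep.add_right {x y w : L} (h : PIndep p x y) (hw : w ∈ pAdj p x) :
    PIndep p x (y + w) :=
  ⟨h.1, fun h' => h.2 (by simpa using (pAdj p x).sub_mem h' hw)⟩

theorem PIndep.add_left' {x y w : L} (h : PIndep p x y) (hw : w ∈ pAdj p x) :
    PIndep p x (w + y) := by rw [add_comm]; exact h.add_right hw

/-- Replace `y` by `e * y`, `0 ≠ e ∈ L^p(x)`. -/
theorem PIndep.mul_right {x y e : L} (h : PIndep p x y) (he : e ∈ pAdj p x) (he0 : e ≠ 0) :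
    PIndep p x (e * y) :=
  ⟨h.1, fun h' => h.2 (by
    have := (pAdj p x).mul_mem ((pAdj p x).inv_mem he) h'
    rwa [inv_mul_cancel_left₀ he0] at this)⟩

end PIndepLemmas

section Structures

variable {K L : Type*} [Field K] [Field L] (p : ℕ) [Fact p.Prime] [CharP K p] [CharP L p]

/-- Abstract hypotheses of the assembly: `t : K → L` is a choice of representatives of
`Θ[u]` (`u ≠ 0`), and `line` is the conclusion of the line lemma (LL). -/
structure LineData (t : K → L) : Prop where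
  ne_zero : ∀ u : K, u ≠ 0 → t u ≠ 0
  mul : ∀ u v : K, u ≠ 0 → v ≠ 0 → PRel p (t (u * v)) (t u * t v)
  pow_iff : ∀ u : K, u ≠ 0 → (t u ∈ pPow L p ↔ u ∈ pPow K p)
  surj : ∀ y : L, y ≠ 0 → ∃ g : K, g ≠ 0 ∧ PRel p (t g) y
  partner : ∀ x : L, x ∉ pPow L p → ∃ y : L, y ∉ pAdj p x
  nonperfect : ∃ x : L, x ∉ pPow L p
  line : ∀ f g : K, f ≠ 0 → g ≠ 0 → PIndep p (t f) (t g) →
    ∃ m : ℕ, 0 < m ∧ m < p ∧ ∃ (P Q : L) (lam : K → L),
      (∀ c ∈ pPow K p, lam c ∈ pPow L p) ∧
      (∀ c ∈ pPow K p, PRel p (t (f + c)) ((P + lam c) ^ m) ∧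
        PRel p (t (g - c)) ((Q - lam c) ^ m)) ∧
      PRel p (t (f + g)) ((P + Q) ^ m)

/-- The normalised hypotheses (`m = 1` in the line lemma). -/
structure NormLine (s : K → L) : Prop where
  ne_zero : ∀ u : K, u ≠ 0 → s u ≠ 0
  mul : ∀ u v : K, u ≠ 0 → v ≠ 0 → PRel p (s (u * v)) (s u * s v)
  pow_iff : ∀ u : K, u ≠ 0 → (s u ∈ pPow L p ↔ u ∈ pPow K p)
  surj : ∀ y : L, y ≠ 0 → ∃ g : K, g ≠ 0 ∧ PRel p (s g) y
  partner : ∀ x : L, x ∉ pPow L p → ∃ y : L, y ∉ pAdj p x
  nonperfect : ∃ x : L, x ∉ pPow L p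
  line : ∀ f g : K, f ≠ 0 → g ≠ 0 → PIndep p (s f) (s g) →
    ∃ (P Q : L) (lam : K → L),
      (∀ c ∈ pPow K p, lam c ∈ pPow L p) ∧
      (∀ c ∈ pPow K p, PRel p (s (f + c)) (P + lam c) ∧ PRel p (s (g - c)) (Q - lam c)) ∧
      PRel p (s (f + g)) (P + Q)

/-- `al p s f` (for `f ∉ K^p`): the representative `z` of the class of `f` normalised by
`s (f + 1) ~ z + 1`. -/
noncomputable def al (s : K → L) (f : K) : L :=
  Classical.epsilon fun z : L => PRel p (s f) z ∧ PRel p (s (f + 1)) (z + 1)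

/-- `lamf p s f c` (for `f ∉ K^p`, `c ∈ K^p`): the element `e ∈ L^p` with
`s (f + c) ~ al p s f + e`. -/
noncomputable def lamf (s : K → L) (f c : K) : L :=
  Classical.epsilon fun e : L => e ∈ pPow L p ∧ PRel p (s (f + c)) (al p s f + e)

end Structures

section PolyTools

variable {L : Type*} [Field L] (p : ℕ) [Fact p.Prime] [CharP L p]

/-- `1, x, …, x^(p-1)` are independent over `L^p` when `x ∉ L^p`: a polynomial of degree `< p`
over `L^p` vanishing at `x` is zero. -/
theorem poly_eq_zero_of_aeval {x : L} (hx : x ∉ pPow L p) (q : (pPow L p)[X])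
    (hq : q.natDegree < p) (h : aeval x q = 0) : q = 0 := by
  by_contra hq0
  have h1 := minpoly.degree_le_of_ne_zero (pPow L p) x hq0 h
  have h2 := natDegree_le_natDegree h1
  rw [minpoly_natDegree_of_notMem p hx] at h2
  omega

end PolyTools

section Defs2

variable (K : Type*) {L : Type*} [Field K] [Field L] (p : ℕ) [Fact p.Prime] [CharP K p] [CharP L p]

/-- A fixed element of `K` outside `K^p` (junk if `K` is perfect). -/
noncomputable def base : K := Classical.epsilon fun f : K => f ∉ pPow K p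

variable {K}

theorem base_notMem (h : ∃ f : K, f ∉ pPow K p) : base K p ∉ pPow K p :=
  Classical.epsilon_spec h

/-- `tau p s c` (`c ∈ K^p`): the common value of `lamf p s f c`. -/
noncomputable def tau (s : K → L) (c : K) : L := lamf p s (base K p) c

open Classical in
/-- The candidate ring homomorphism: `tau` on `K^p`, `al` outside. -/
noncomputable def alpha (s : K → L) (u : K) : L :=
  if u ∈ pPow K p then tau p s u else al p s u

theorem alpha_of_mem (s : K → L) {u : K} (hu : u ∈ pPow K p) : alpha p s u = tau p s u := by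
  simp [alpha, hu]

theorem alpha_of_notMem (s : K → L) {u : K} (hu : u ∉ pPow K p) : alpha p s u = al p s u := by
  simp [alpha, hu]

end Defs2

end Crest.Agent.Helper19.S0010
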