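/-
S0010 (row 9), abstract assembly, block AS2 = A2 + A3:
`al`, `lamf` exist and are unique; basic consequences of `NormLine`; lines (`line_add`).
Pure Mathlib. Statements = `ASSpec`, section AS2.
-/
import Crest.Agent.Helper19.S0010.ASBasic

set_option autoImplicit false

namespace Crest.Agent.Helper19.S0010

section Pure

variable {L : Type*} [Field L] {p : ℕ} [Fact p.Prime] [CharP L p]

theorem ne_zero_of_notMem {S : Subfield L} {f : L} (hf : f ∉ S) : f ≠ 0 := by
  rintro rfl; exact hf S.zero_mem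

theorem add_notMem_of_notMem {S : Subfield L} {f c : L} (hf : f ∉ S) (hc : c ∈ S) :
    f + c ∉ S := fun h => hf (by simpa using S.sub_mem h hc)

theorem add_ne_zero_of_notMem {S : Subfield L} {f c : L} (hf : f ∉ S) (hc : c ∈ S) :
    f + c ≠ 0 := ne_zero_of_notMem (add_notMem_of_notMem hf hc)

/-- uniqueness of the normalised representative -/
theorem prel_unique {z z' : L} (hz : z ∉ pPow L p) (h1 : PRel p z' z)
    (h2 : PRel p (z' + 1) (z + 1)) : z' = z := by
  obtain ⟨a, ha, -, h1⟩ := h1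
  obtain ⟨b, hb, -, h2⟩ := h2
  have h3 := lin2 hz ((pPow L p).sub_mem (pPow L p).one_mem hb) ((pPow L p).sub_mem ha hb)
    (by rw [h1] at h2; linear_combination h2)
  have hb1 : b = 1 := by linear_combination -h3.1
  have ha1 : a = 1 := by linear_combination h3.2 + hb1
  rw [h1, ha1, one_mul]

/-- uniqueness of the shift -/
theorem prel_shift_unique {z e e' : L} (hz : z ∉ pPow L p) (he : e ∈ pPow L p)
    (he' : e' ∈ pPow L p) (h1 : PRel p (z + e) (z + e')) : e = e' := by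
  obtain ⟨a, ha, -, h1⟩ := h1
  have h3 := lin2 hz ((pPow L p).sub_mem he ((pPow L p).mul_mem ha he'))
    ((pPow L p).sub_mem (pPow L p).one_mem ha) (by linear_combination h1)
  have ha1 : a = 1 := by linear_combination -h3.2
  have h4 := h3.1
  rw [ha1, one_mul] at h4
  exact sub_eq_zero.1 h4

end Pure

variable {K L : Type*} [Field K] [Field L] {p : ℕ} [Fact p.Prime] [CharP K p] [CharP L p]
variable {s : K → L}

theorem NormLine.one (h : NormLine p s) : PRel p (s 1) 1 := by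
  have h1 : s 1 ≠ 0 := h.ne_zero 1 one_ne_zero
  obtain ⟨e, he, he0, heq⟩ := h.mul 1 1 one_ne_zero one_ne_zero
  rw [one_mul] at heq
  have h2 : e * s 1 = 1 := by
    apply mul_right_cancel₀ h1
    rw [one_mul]
    linear_combination -heq
  exact ⟨e⁻¹, (pPow L p).inv_mem he, inv_ne_zero he0, by
    rw [mul_one]; exact (inv_eq_of_mul_eq_one_right h2).symm⟩

theorem NormLine.of_mem (h : NormLine p s) {c : K} (hc : c ∈ pPow K p) (hc0 : c ≠ 0) :
    PRel p (s c) 1 :=
  prel_of_mem ((h.pow_iff c hc0).2 hc) (h.ne_zero c hc0) (pPow L p).one_mem one_ne_zero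

theorem NormLine.div (h : NormLine p s) {u v : K} (hu : u ≠ 0) (hv : v ≠ 0) :
    PRel p (s (u / v)) (s u / s v) := by
  have h1 := h.mul (u / v) v (div_ne_zero hu hv) hv
  rw [div_mul_cancel₀ u hv] at h1
  have h2 := h1.symm.div (PRel.refl (s v))
  rwa [mul_div_assoc, div_self (h.ne_zero v hv), mul_one] at h2

/-- injectivity of the class map -/
theorem NormLine.inj (h : NormLine p s) {u v : K} (hu : u ≠ 0) (hv : v ≠ 0)
    (huv : PRel p (s u) (s v)) : PRel p u v := by
  have hsv : s v ≠ 0 := h.ne_zero v hv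
  have h1 : s u / s v ∈ pPow L p := by
    obtain ⟨e, he, -, heq⟩ := huv
    rw [heq, mul_div_assoc, div_self hsv, mul_one]; exact he
  have h2 : s (u / v) ∈ pPow L p := (h.div hu hv).mem_pPow_iff.2 h1
  have h3 : u / v ∈ pPow K p := (h.pow_iff _ (div_ne_zero hu hv)).1 h2
  exact ⟨u / v, h3, div_ne_zero hu hv, (div_mul_cancel₀ u hv).symm⟩

theorem NormLine.s_notMem (h : NormLine p s) {f : K} (hf : f ∉ pPow K p) :
    s f ∉ pPow L p := fun h' => hf ((h.pow_iff f (ne_zero_of_notMem hf)).1 h')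

theorem NormLine.exists_notMem (h : NormLine p s) : ∃ f : K, f ∉ pPow K p := by
  obtain ⟨x, hx⟩ := h.nonperfect
  obtain ⟨g, hg0, hg⟩ := h.surj x (ne_zero_of_notMem hx)
  exact ⟨g, fun hgF => hx (hg.mem_pPow_iff.1 ((h.pow_iff g hg0).2 hgF))⟩

/-- every `f ∉ F` has a generic partner -/
theorem NormLine.exists_partner (h : NormLine p s) {f : K} (hf : f ∉ pPow K p) :
    ∃ g : K, g ≠ 0 ∧ PIndep p (s f) (s g) := by
  obtain ⟨y, hy⟩ := h.partner (s f) (h.s_notMem hf)
  obtain ⟨g, hg0, hg⟩ := h.surj y (ne_zero_of_notMem hy)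
  exact ⟨g, hg0, h.s_notMem hf, fun h' => hy ((hg.mem_pAdj_iff _).1 h')⟩

/-- a common generic partner of two elements whose images are dependent -/
theorem NormLine.exists_partner₂ (h : NormLine p s) {f f' : K} (hf : f ∉ pPow K p)
    (hf' : s f' ∈ pAdj p (s f)) : ∃ g : K, g ≠ 0 ∧ PIndep p (s f) (s g) ∧
      (f' ∉ pPow K p → f' ≠ 0 → PIndep p (s f') (s g)) := by
  obtain ⟨g, hg0, hg⟩ := h.exists_partner hf
  exact ⟨g, hg0, hg, fun hf'' _ => hg.of_mem_left hf' (h.s_notMem hf'')⟩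

/-- existence of the normalised representative, with all shifts -/
theorem NormLine.exists_al (h : NormLine p s) {f : K} (hf : f ∉ pPow K p) :
    ∃ z : L, PRel p (s f) z ∧ PRel p (s (f + 1)) (z + 1) ∧
      ∀ c ∈ pPow K p, ∃ e ∈ pPow L p, PRel p (s (f + c)) (z + e) := by
  have hf0 : f ≠ 0 := ne_zero_of_notMem hf
  obtain ⟨g, hg0, hfg⟩ := h.exists_partner hf
  obtain ⟨P, Q, lam, hlam, hline, -⟩ := h.line f g hf0 hg0 hfg
  have h0 := (hline 0 (pPow K p).zero_mem).1
  have h1 := (hline 1 (pPow K p).one_mem).1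
  rw [add_zero] at h0
  have hdmem : lam 1 - lam 0 ∈ pPow L p :=
    (pPow L p).sub_mem (hlam 1 (pPow K p).one_mem) (hlam 0 (pPow K p).zero_mem)
  have hd0 : lam 1 - lam 0 ≠ 0 := by
    intro hd0
    have e1 : P + lam 1 = P + lam 0 := by linear_combination hd0
    rw [e1] at h1
    have h2 : PRel p (s (f + 1)) (s f) := h1.trans h0.symm
    have hf1 : f + 1 ≠ 0 := add_ne_zero_of_notMem hf (pPow K p).one_mem
    obtain ⟨e, he, -, heq⟩ := h.inj hf1 hf0 h2
    have he1 : e - 1 ≠ 0 := by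
      intro h'
      have he' : e = 1 := sub_eq_zero.1 h'
      rw [he', one_mul] at heq
      exact one_ne_zero (α := K) (by linear_combination heq)
    have h3 : f * (e - 1) = 1 := by linear_combination -heq
    apply hf
    rw [← inv_eq_of_mul_eq_one_left h3]
    exact (pPow K p).inv_mem ((pPow K p).sub_mem he (pPow K p).one_mem)
  refine ⟨(lam 1 - lam 0)⁻¹ * (P + lam 0), ?_, ?_, ?_⟩
  · exact h0.trans ⟨lam 1 - lam 0, hdmem, hd0, (mul_inv_cancel_left₀ hd0 _).symm⟩
  · refine h1.trans ⟨lam 1 - lam 0, hdmem, hd0, ?_⟩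
    rw [mul_add, mul_inv_cancel_left₀ hd0, mul_one]; ring
  · intro c hc
    refine ⟨(lam 1 - lam 0)⁻¹ * (lam c - lam 0), (pPow L p).mul_mem ((pPow L p).inv_mem hdmem)
      ((pPow L p).sub_mem (hlam c hc) (hlam 0 (pPow K p).zero_mem)), ?_⟩
    refine (hline c hc).1.trans ⟨lam 1 - lam 0, hdmem, hd0, ?_⟩
    rw [mul_add, mul_inv_cancel_left₀ hd0, mul_inv_cancel_left₀ hd0]; ring

theorem NormLine.al_spec (h : NormLine p s) {f : K} (hf : f ∉ pPow K p) :
    PRel p (s f) (al p s f) ∧ PRel p (s (f + 1)) (al p s f + 1) := by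
  obtain ⟨z, hz1, hz2, -⟩ := h.exists_al hf
  exact Classical.epsilon_spec
    (p := fun z : L => PRel p (s f) z ∧ PRel p (s (f + 1)) (z + 1)) ⟨z, hz1, hz2⟩

theorem NormLine.al_notMem (h : NormLine p s) {f : K} (hf : f ∉ pPow K p) :
    al p s f ∉ pPow L p := fun h' =>
  h.s_notMem hf ((h.al_spec hf).1.mem_pPow_iff.2 h')

theorem NormLine.al_eq (h : NormLine p s) {f : K} (hf : f ∉ pPow K p) {z : L}
    (h1 : PRel p (s f) z) (h2 : PRel p (s (f + 1)) (z + 1)) : al p s f = z := by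
  have hz : z ∉ pPow L p := fun h' => h.s_notMem hf (h1.mem_pPow_iff.2 h')
  obtain ⟨a1, a2⟩ := h.al_spec hf
  exact prel_unique hz (a1.symm.trans h1) (a2.symm.trans h2)

theorem NormLine.exists_lamf (h : NormLine p s) {f : K} (hf : f ∉ pPow K p) {c : K}
    (hc : c ∈ pPow K p) : ∃ e : L, e ∈ pPow L p ∧ PRel p (s (f + c)) (al p s f + e) := by
  obtain ⟨z, hz1, hz2, hz3⟩ := h.exists_al hf
  obtain ⟨e, he, hec⟩ := hz3 c hc
  rw [h.al_eq hf hz1 hz2]
  exact ⟨e, he, hec⟩

theorem NormLine.lamf_spec (h : NormLine p s) {f : K} (hf : f ∉ pPow K p) {c : K}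
    (hc : c ∈ pPow K p) :
    lamf p s f c ∈ pPow L p ∧ PRel p (s (f + c)) (al p s f + lamf p s f c) :=
  Classical.epsilon_spec
    (p := fun e : L => e ∈ pPow L p ∧ PRel p (s (f + c)) (al p s f + e)) (h.exists_lamf hf hc)

theorem NormLine.lamf_eq (h : NormLine p s) {f : K} (hf : f ∉ pPow K p) {c : K}
    (hc : c ∈ pPow K p) {e : L} (he : e ∈ pPow L p) (h1 : PRel p (s (f + c)) (al p s f + e)) :
    lamf p s f c = e := by
  obtain ⟨m1, m2⟩ := h.lamf_spec hf hc
  exact prel_shift_unique (h.al_notMem hf) m1 he (m2.symm.trans h1)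

theorem NormLine.lamf_zero (h : NormLine p s) {f : K} (hf : f ∉ pPow K p) :
    lamf p s f 0 = 0 :=
  h.lamf_eq hf (pPow K p).zero_mem (pPow L p).zero_mem (by
    rw [add_zero, add_zero]; exact (h.al_spec hf).1)

theorem NormLine.lamf_one (h : NormLine p s) {f : K} (hf : f ∉ pPow K p) :
    lamf p s f 1 = 1 :=
  h.lamf_eq hf (pPow K p).one_mem (pPow L p).one_mem (h.al_spec hf).2

/-- (A3) lines go to lines, normalised form: `s (u + v) ~ u' + e * v'`, `0 ≠ e ∈ F'`,
for ANY representatives `u' ~ s u`, `v' ~ s v`, provided `v / u ∉ F`. -/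
theorem NormLine.line_add (h : NormLine p s) {u v : K} (hu : u ≠ 0) (hv : v ≠ 0)
    (huv : v / u ∉ pPow K p) {u' v' : L} (hu' : PRel p (s u) u') (hv' : PRel p (s v) v') :
    ∃ e ∈ pPow L p, e ≠ 0 ∧ PRel p (s (u + v)) (u' + e * v') := by
  have hu'0 : u' ≠ 0 := hu'.ne_zero_iff.1 (h.ne_zero u hu)
  obtain ⟨a1, a2⟩ := h.al_spec huv
  have hf1 : v / u + 1 ≠ 0 := add_ne_zero_of_notMem huv (pPow K p).one_mem
  have h1 : PRel p (al p s (v / u)) (v' / u') :=
    a1.symm.trans ((h.div hv hu).trans (hv'.div hu'))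
  obtain ⟨e, he, he0, heq⟩ := h1
  refine ⟨e, he, he0, ?_⟩
  have h2 : PRel p (s (u + v)) (s u * s (v / u + 1)) := by
    have h2' := h.mul u (v / u + 1) hu hf1
    rwa [mul_add, mul_div_cancel₀ v hu, mul_one, add_comm] at h2'
  have h3 : PRel p (s u * s (v / u + 1)) (u' * (al p s (v / u) + 1)) := hu'.mul a2
  have h4 : u' * (al p s (v / u) + 1) = u' + e * v' := by
    rw [heq, mul_add, mul_one, mul_comm u' (e * (v' / u')), mul_assoc, div_mul_cancel₀ v' hu'0,
      add_comm]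
  rw [h4] at h3
  exact h2.trans h3

end Crest.Agent.Helper19.S0010
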