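/-
S0010 (row 9), abstract assembly (WP-AS): SPEC of the blocks AS1..AS5.

Every statement here is `sorry`; this file is NOT imported by any proof. The real proofs live in
`Crest/Agent/<owner>/S0010/...` with the SAME statements (namespace of the owner's choice); a block
may use the statements of EARLIER blocks from this file (`Spec.…`) until those land.

Notation: F = pPow K p = K^p, F' = pPow L p = L^p, `a ~ b` = `PRel p a b`.
Blocks:
  AS1 = (PL) + A1   : LineData ⇒ one global exponent m; normalised `s u = t u ^ m'` is a NormLine.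
  AS2 = A2 + A3     : al / lamf exist and are unique; lines (`line_add`).          [helper19]
  AS3 = A4 + A5     : al additive on generic pairs; lamf = tau; al (f + c) = al f + tau c; tau additive.
  AS4 = A6          : alpha additive on all of K; s u ~ alpha u.
  AS5 = A7 + A8     : alpha multiplicative; the ring hom.
-/
import Crest.Agent.Helper19.S0010.ASBasic

set_option autoImplicit false

namespace Crest.Agent.Helper19.S0010.Spec

open Crest.Agent.Helper19.S0010

variable {K L : Type*} [Field K] [Field L] {p : ℕ} [Fact p.Prime] [CharP K p] [CharP L p]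

/-! ### AS1 = (PL) + A1

(PL): `P, P' ∉ F'`, `0 < m, m' < p`, `lam, lam'` map `F` into `F'`, `lam c₁ ≠ lam c₀` for some
`c₀, c₁ ∈ F`, and `(P + lam c)^m ~ (P' + lam' c)^m'` for all `c ∈ F`  ⇒  `m = m'`.
(Take `r ≡ m/m'`; `P' + lam' c = e_c (P + lam c)^r`; for `r ≥ 2` the coefficient of `X^1` in the
basis `1, X, .., X^(p-1)`, `X = P + lam c₀`, gives a contradiction: `poly_eq_zero_of_aeval`.)
A1: the `m` of `LineData.line` is the same for all generic pairs: it depends only on `f`
(two partners: (PL)), `m (f, g) = m (g, f)` ((PL) with `lam'' c := - lam (-c)`), and any two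
`f, f' ∉ F` have a common partner (`LineData.partner` + `surj` + `exchange`).
Then with `m * m' ≡ 1 [MOD p]`, `s u := t u ^ m'` satisfies `NormLine`
(`prel_pow_of_modEq_one`, `mem_pPow_of_pow_mem`, `PRel.of_pow`, `PRel.pAdj_eq`). -/

theorem LineData.exists_normLine {t : K → L} (h : LineData p t) :
    ∃ m m' : ℕ, 0 < m ∧ m < p ∧ m * m' ≡ 1 [MOD p] ∧ NormLine p (fun u => t u ^ m') := by
  sorry

/-! ### AS2 = A2 + A3  (helper19) -/

section AS2

variable {s : K → L}

theorem NormLine.one (h : NormLine p s) : PRel p (s 1) 1 := by sorry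

theorem NormLine.of_mem (h : NormLine p s) {c : K} (hc : c ∈ pPow K p) (hc0 : c ≠ 0) :
    PRel p (s c) 1 := by sorry

theorem NormLine.div (h : NormLine p s) {u v : K} (hu : u ≠ 0) (hv : v ≠ 0) :
    PRel p (s (u / v)) (s u / s v) := by sorry

/-- injectivity of the class map -/
theorem NormLine.inj (h : NormLine p s) {u v : K} (hu : u ≠ 0) (hv : v ≠ 0)
    (huv : PRel p (s u) (s v)) : PRel p u v := by sorry

theorem NormLine.exists_notMem (h : NormLine p s) : ∃ f : K, f ∉ pPow K p := by sorry

/-- every `f ∉ F` has a generic partner -/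
theorem NormLine.exists_partner (h : NormLine p s) {f : K} (hf : f ∉ pPow K p) :
    ∃ g : K, g ≠ 0 ∧ PIndep p (s f) (s g) := by sorry

/-- a common generic partner of two elements whose images are dependent -/
theorem NormLine.exists_partner₂ (h : NormLine p s) {f f' : K} (hf : f ∉ pPow K p)
    (hf' : s f' ∈ pAdj p (s f)) : ∃ g : K, g ≠ 0 ∧ PIndep p (s f) (s g) ∧
      (f' ∉ pPow K p → f' ≠ 0 → PIndep p (s f') (s g)) := by sorry

theorem NormLine.al_spec (h : NormLine p s) {f : K} (hf : f ∉ pPow K p) :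
    PRel p (s f) (al p s f) ∧ PRel p (s (f + 1)) (al p s f + 1) := by sorry

theorem NormLine.al_notMem (h : NormLine p s) {f : K} (hf : f ∉ pPow K p) :
    al p s f ∉ pPow L p := by sorry

theorem NormLine.al_eq (h : NormLine p s) {f : K} (hf : f ∉ pPow K p) {z : L}
    (h1 : PRel p (s f) z) (h2 : PRel p (s (f + 1)) (z + 1)) : al p s f = z := by sorry

theorem NormLine.lamf_spec (h : NormLine p s) {f : K} (hf : f ∉ pPow K p) {c : K}
    (hc : c ∈ pPow K p) :
    lamf p s f c ∈ pPow L p ∧ PRel p (s (f + c)) (al p s f + lamf p s f c) := by sorry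

theorem NormLine.lamf_eq (h : NormLine p s) {f : K} (hf : f ∉ pPow K p) {c : K}
    (hc : c ∈ pPow K p) {e : L} (he : e ∈ pPow L p) (h1 : PRel p (s (f + c)) (al p s f + e)) :
    lamf p s f c = e := by sorry

theorem NormLine.lamf_zero (h : NormLine p s) {f : K} (hf : f ∉ pPow K p) :
    lamf p s f 0 = 0 := by sorry

theorem NormLine.lamf_one (h : NormLine p s) {f : K} (hf : f ∉ pPow K p) :
    lamf p s f 1 = 1 := by sorry

/-- (A3) lines go to lines, normalised form: `s (u + v) ~ u' + e * v'`, `0 ≠ e ∈ F'`,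
for ANY representatives `u' ~ s u`, `v' ~ s v`, provided `v / u ∉ F`. -/
theorem NormLine.line_add (h : NormLine p s) {u v : K} (hu : u ≠ 0) (hv : v ≠ 0)
    (huv : v / u ∉ pPow K p) {u' v' : L} (hu' : PRel p (s u) u') (hv' : PRel p (s v) v') :
    ∃ e ∈ pPow L p, e ≠ 0 ∧ PRel p (s (u + v)) (u' + e * v') := by sorry

end AS2

/-! ### AS3 = A4 + A5

A4 (`al_add_of_indep`): x := al f, y := al g are p-independent. `line_add` four times:
  s (f + g) ~ x + e y;  s ((1 + f) + g) ~ (x + 1) + e₁ y;  s ((1 + g) + f) ~ (y + 1) + e₂ x;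
  s ((f + g) + 1) ~ (x + e y) + e₃ · 1.  `lin3_eq` on the basis 1, x, y: e₁ = e₂ = 1, then e = e₃ = 1;
  so s (f + g) ~ x + y and s (f + g + 1) ~ x + y + 1, and `al_eq` gives al (f + g) = x + y.
A5: for f ∉ F, c ∈ F, a generic partner g of f: al (f + c) = ε (al f + lamf f c) (ε ∈ F');
  A4 for (f + c, g) and for (f, g), and `lamf_spec` for f + g:
  ε (al f + lamf f c) + al g = ε' (al f + al g + lamf (f + g) c)  ⇒ ε = ε' = 1, lamf f c = lamf (f+g) c.
  Symmetric in f, g ⇒ lamf f = lamf g for generic pairs ⇒ (common partners) lamf f = lamf (base) = tau.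
  tau additive from al (f + c + d) two ways; tau c = 0 ⇒ s (f + c) ~ s f ⇒ c = 0. -/

section AS3

variable {s : K → L}

theorem NormLine.add_notMem_of_indep (h : NormLine p s) {f g : K} (hf : f ≠ 0) (hg : g ≠ 0)
    (hfg : PIndep p (s f) (s g)) : f + g ∉ pPow K p := by sorry

theorem NormLine.al_add_of_indep (h : NormLine p s) {f g : K} (hf : f ≠ 0) (hg : g ≠ 0)
    (hfg : PIndep p (s f) (s g)) : al p s (f + g) = al p s f + al p s g := by sorry

theorem NormLine.lamf_eq_tau (h : NormLine p s) {f : K} (hf : f ∉ pPow K p) {c : K}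
    (hc : c ∈ pPow K p) : lamf p s f c = tau p s c := by sorry

theorem NormLine.al_add_const (h : NormLine p s) {f : K} (hf : f ∉ pPow K p) {c : K}
    (hc : c ∈ pPow K p) : al p s (f + c) = al p s f + tau p s c := by sorry

theorem NormLine.tau_mem (h : NormLine p s) {c : K} (hc : c ∈ pPow K p) :
    tau p s c ∈ pPow L p := by sorry

theorem NormLine.tau_zero (h : NormLine p s) : tau p s 0 = 0 := by sorry

theorem NormLine.tau_one (h : NormLine p s) : tau p s 1 = 1 := by sorry

theorem NormLine.tau_add (h : NormLine p s) {c d : K} (hc : c ∈ pPow K p) (hd : d ∈ pPow K p) :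
    tau p s (c + d) = tau p s c + tau p s d := by sorry

theorem NormLine.tau_eq_zero (h : NormLine p s) {c : K} (hc : c ∈ pPow K p)
    (h0 : tau p s c = 0) : c = 0 := by sorry

end AS3

/-! ### AS4 = A6

`alpha u = tau u` on F, `al u` outside.  Cases for `alpha (u + v)`:
 both in F: `tau_add`;  one in F: `al_add_const`;  generic pair: `al_add_of_indep`;
 u, v ∉ F with s v ∈ L^p(s u):
   * u + v ∈ F: v = -u + c; al (-u) = - al u (via `al_eq`: s (-u) ~ s u, s (-u + 1) ~ s (u - 1)
     ~ al u + tau (-1) = al u - 1); then `al_add_const`.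
   * u + v ∉ F: g := common partner (`exists_partner₂`); s (u + v) ∈ L^p(s u) (by `line_add`, or
     s (u + v) ~ s u if v / u ∈ F), so (u + v, g), (v, g), (u, v + g) are generic and
     al (u + v) + al g = al (u + v + g) = al u + al (v + g) = al u + al v + al g. -/

section AS4

variable {s : K → L}

theorem NormLine.prel_alpha (h : NormLine p s) {u : K} (hu : u ≠ 0) :
    PRel p (s u) (alpha p s u) := by sorry

theorem NormLine.alpha_add (h : NormLine p s) (u v : K) :
    alpha p s (u + v) = alpha p s u + alpha p s v := by sorry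

end AS4

/-! ### AS5 = A7 + A8

A7: u ∉ F, 0 ≠ c ∈ F: al (c u) = al u / tau (c⁻¹) by `al_eq` (s (c u) ~ s u ~ al u;
  s (c u + 1) ~ s (u + c⁻¹) ~ al u + tau c⁻¹); al (c (u + 1)) two ways gives tau c * tau c⁻¹ = 1,
  so alpha (c u) = tau c * alpha u; tau (c d) = tau c * tau d from al (c d u).
A8: alpha (u w) = ε(u,w) alpha u alpha w with ε ∈ F' (`prel_alpha`, `NormLine.mul`);
  additivity in w and independence of 1, alpha w (w ∉ F): ε(u, w) = ε(u, 1) = 1. -/

section AS5

variable {s : K → L}

theorem NormLine.alpha_mul (h : NormLine p s) (u v : K) :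
    alpha p s (u * v) = alpha p s u * alpha p s v := by sorry

theorem NormLine.exists_ringHom (h : NormLine p s) :
    ∃ α : K →+* L, ∀ u : K, u ≠ 0 → PRel p (s u) (α u) := by sorry

end AS5

/-! ### Final (helper19, after AS1..AS5) -/

theorem LineData.exists_ringHom {t : K → L} (h : LineData p t) :
    ∃ (α : K →+* L) (m : ℕ), 0 < m ∧ m < p ∧ ∀ u : K, u ≠ 0 → PRel p (t u) (α u ^ m) := by
  sorry

end Crest.Agent.Helper19.S0010.Spec
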